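import Vale.Agent.P124.NoC0

namespace Vale.Agent.Results.P124.A_full

/-- Two separable real Banach spaces that are Lipschitz isomorphic but not linearly isomorphic. -/
theorem result :
    ∃ (X Y : Type) (_ : NormedAddCommGroup X) (_ : NormedSpace ℝ X) (_ : CompleteSpace X)
      (_ : TopologicalSpace.SeparableSpace X) (_ : NormedAddCommGroup Y) (_ : NormedSpace ℝ Y)
      (_ : CompleteSpace Y) (_ : TopologicalSpace.SeparableSpace Y),
      (∃ (f : X → Y) (c C : ℝ), Function.Bijective f ∧ 0 < c ∧ c ≤ C ∧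
        ∀ x x' : X, c * ‖x - x'‖ ≤ ‖f x - f x'‖ ∧ ‖f x - f x'‖ ≤ C * ‖x - x'‖) ∧
      ¬ ∃ T : X →L[ℝ] Y, Function.Bijective T :=
  ⟨Vale.Agent.P124.C0 ℝ × Vale.Agent.P124.VV, Vale.Agent.P124.VV, inferInstance, inferInstance,
    inferInstance, inferInstance, inferInstance, inferInstance, inferInstance, inferInstance,
    Vale.Agent.P124.exists_equiv, fun ⟨T, hT⟩ => Vale.Agent.P124.not_iso T hT⟩

end Vale.Agent.Results.P124.A_full
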